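import Vale.Agent.Lib.P197B.Labels
import Vale.Agent.Lib.P197W.Conj

/-!
# P197B: the block lemma (blueprint Sec 6)
-/

open Finset Equiv

namespace Vale.Agent.Lib.P197B

open Vale.Agent.Lib.P197 Vale.Agent.Lib.P197W

variable {n : ℕ}

/-- The column lengths of `al` are strictly decreasing until they vanish. -/
def StrictCols (al : YoungDiagram) : Prop :=
  ∀ j, al.colLen (j + 1) < al.colLen j ∨ al.colLen j = 0

/-- The shape of a filling, with rows and columns exchanged. -/
theorem shape_of_filling {al : YoungDiagram} (T₁ : Filling n al) :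
    Shape (colOf T₁) (rowOf T₁) al.colLen where
  cell x := by
    have h : ((T₁ x).1.1, (T₁ x).1.2) ∈ al := (T₁ x).2
    exact YoungDiagram.mem_iff_lt_colLen.1 h
  surj v t ht := by
    have hm : (t, v) ∈ al.cells := YoungDiagram.mem_iff_lt_colLen.2 ht
    refine ⟨T₁.symm ⟨(t, v), hm⟩, ?_, ?_⟩ <;> simp [colOf, rowOf]
  inj x y h1 h2 := by
    apply T₁.injective
    apply Subtype.ext
    exact Prod.ext h2 h1

theorem card_fiber_colOf {al : YoungDiagram} (T₁ : Filling n al) (v : ℕ) :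
    (univ.filter fun x => colOf T₁ x = v).card = al.colLen v := by
  have hS := shape_of_filling T₁
  rw [← Finset.card_range (al.colLen v)]
  refine Finset.card_bij (fun x _ => rowOf T₁ x) ?_ ?_ ?_
  · intro x hx
    have h1 := (Finset.mem_filter.1 hx).2
    have h2 := hS.cell x
    rw [h1] at h2
    exact Finset.mem_range.2 h2
  · intro x hx y hy hxy
    have h1 := (Finset.mem_filter.1 hx).2
    have h2 := (Finset.mem_filter.1 hy).2
    exact hS.inj x y (h1.trans h2.symm) hxy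
  · intro t ht
    obtain ⟨x, h1, h2⟩ := hS.surj v t (Finset.mem_range.1 ht)
    exact ⟨x, Finset.mem_filter.2 ⟨mem_univ _, h1⟩, h2⟩

theorem card_of_filling {ν : YoungDiagram} (T : Filling n ν) : n = ν.card := by
  have h := Fintype.card_congr T
  rw [Fintype.card_fin, Fintype.card_coe] at h
  exact h

/-- **Block lemma, column form.** -/
theorem block_sum_ne (al ν : YoungDiagram) (hal : StrictCols al)
    (hdom : ∀ s, ∑ i ∈ range s, al.colLen i ≤ ∑ i ∈ range s, ν.rowLen i)
    (T₁ T₂ : Filling n al) (T₃ : Filling n ν) :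
    ∑ π : Perm (Fin n), rr T₁ π * rr T₂ π * rr T₃ π ≠ 0 := by
  have hS := shape_of_filling T₁
  have hanti : Antitone al.colLen := fun a b hab => al.colLen_anti a b hab
  have hstrict : IsStrictD al.colLen := by
    intro j
    rcases hal j with h | h
    · exact Or.inl h
    · refine Or.inr ⟨h, ?_⟩
      have h2 : al.colLen (j + 1) ≤ al.colLen j := al.colLen_anti j (j + 1) (Nat.le_succ j)
      omega
  have hP' : ∀ v, al.rowLen 0 + 1 ≤ v → al.colLen v = 0 := by
    intro v hv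
    by_contra hne
    have h0 : 0 < al.colLen v := Nat.pos_of_ne_zero hne
    have hm : (0, v) ∈ al := YoungDiagram.mem_iff_lt_colLen.2 h0
    have := YoungDiagram.mem_iff_lt_rowLen.1 hm
    omega
  obtain ⟨T, hT⟩ := exists_filling_labels ν al.colLen hanti hdom (colOf T₁)
    (card_fiber_colOf T₁) (card_of_filling T₃)
  let N : ℕ := (univ : Finset (Fin n)).sup (rowOf T) + 1
  have hN : 0 < N := Nat.succ_pos _
  have hr : ∀ x, rowOf T x < N := fun x =>
    Nat.lt_succ_of_le (Finset.le_sup (f := rowOf T) (mem_univ x))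
  have hinj : ∀ x y, rowOf T x = rowOf T y → colOf T x = colOf T y → x = y := by
    intro x y h1 h2
    apply T.injective
    apply Subtype.ext
    exact Prod.ext h1 h2
  have hinit : ∀ x, ∀ r' < rowOf T x, ∃ y, colOf T y = colOf T x ∧ rowOf T y = r' := by
    intro x r' hr'
    have hmem : ((T x).1.1, (T x).1.2) ∈ ν := (T x).2
    have hm : (r', colOf T x) ∈ ν.cells := ν.up_left_mem (le_of_lt hr') le_rfl hmem
    refine ⟨T.symm ⟨(r', colOf T x), hm⟩, ?_, ?_⟩ <;> simp [colOf, rowOf]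
  have h1 : phiP (colOf T₁) (rowOf T₁) (rowOf T) (colOf T) hr ≠ 0 :=
    phiP_ne_zero (colOf T₁) (rowOf T₁) (rowOf T) (colOf T) (al.rowLen 0 + 1) hS hstrict hP' hN hr
      hinj hinit hT
  have h2 : polyP T₁ T₁ T ≠ 0 :=
    polyF_ne_zero_of_phiP (colOf T₁) (rowOf T₁) (rowOf T) (colOf T) hS.inj hr h1
  have h3 := pos_of_poly T₁ T₁ T h2
  rw [rr_indep T₂ T₁, rr_indep T₃ T]
  exact h3

/-- **Block lemma, polynomial form** (for use with the semigroup step). -/
theorem block_poly (al ν : YoungDiagram) (hal : StrictCols al)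
    (hdom : ∀ s, ∑ i ∈ range s, al.colLen i ≤ ∑ i ∈ range s, ν.rowLen i)
    (T₁ T₂ : Filling n al) (T₃ : Filling n ν) :
    ∃ σ₁ σ₂ σ₃ : Perm (Fin n), polyP (σ₁.trans T₁) (σ₂.trans T₂) (σ₃.trans T₃) ≠ 0 :=
  poly_of_pos T₁ T₂ T₃ (block_sum_ne al ν hal hdom T₁ T₂ T₃)

/-- **Block lemma, row form**: a strict partition `d`, any `ν` dominating it. -/
theorem block_sum_ne' (d ν : YoungDiagram) (hd : ∀ i, d.rowLen (i + 1) < d.rowLen i ∨ d.rowLen i = 0)
    (hdom : ∀ s, ∑ i ∈ range s, d.rowLen i ≤ ∑ i ∈ range s, ν.rowLen i)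
    (T₁ T₂ : Filling n d) (T₃ : Filling n ν) :
    ∑ π : Perm (Fin n), rr T₁ π * rr T₂ π * rr T₃ π ≠ 0 := by
  have hal : StrictCols d.transpose := by
    intro j
    rw [YoungDiagram.colLen_transpose, YoungDiagram.colLen_transpose]
    exact hd j
  have hdom' : ∀ s, ∑ i ∈ range s, d.transpose.colLen i ≤ ∑ i ∈ range s, ν.rowLen i := by
    intro s
    simp only [YoungDiagram.colLen_transpose]
    exact hdom s
  have h := block_sum_ne d.transpose ν hal hdom' (tFill T₁) (tFill T₂) T₃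
  intro h0
  apply h
  rw [← h0]
  refine Finset.sum_congr rfl fun π _ => ?_
  rw [rr_tFill, rr_tFill]
  have hs : (sgnZ π : ℝ) * (sgnZ π : ℝ) = 1 := by
    have := sgnZ_mul_sgnZ_self π
    exact_mod_cast this
  calc (sgnZ π : ℝ) * rr T₁ π * ((sgnZ π : ℝ) * rr T₂ π) * rr T₃ π
      = ((sgnZ π : ℝ) * (sgnZ π : ℝ)) * (rr T₁ π * rr T₂ π * rr T₃ π) := by ring
    _ = rr T₁ π * rr T₂ π * rr T₃ π := by rw [hs, one_mul]

/-- **Block lemma, Kronecker form.** -/
theorem block_kronecker (d ν : YoungDiagram) (hd : ∀ i, d.rowLen (i + 1) < d.rowLen i ∨ d.rowLen i = 0)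
    (hdom : ∀ s, ∑ i ∈ range s, d.rowLen i ≤ ∑ i ∈ range s, ν.rowLen i)
    (T₁ T₂ : Filling n d) (T₃ : Filling n ν) :
    0 < kronecker T₁ T₂ T₃ :=
  kronecker_pos T₁ T₂ T₃ (block_sum_ne' d ν hd hdom T₁ T₂ T₃)

end Vale.Agent.Lib.P197B
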