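import Vale.Agent.Lib.P197B.Pairing

/-!
# P197B: column strict labellings from dominance (blueprint Sec 5)
-/

open Finset

namespace Vale.Agent.Lib.P197B

open Vale.Agent.Lib.P197

/-- The row lengths after removing the horizontal strip of size `g` taken from the lowest rows. -/
def strip (x : ℕ → ℕ) (g : ℕ) (i : ℕ) : ℕ := (x i - g) + min g (x (i + 1))

theorem strip_ge (x : ℕ → ℕ) (hx : Antitone x) (g i : ℕ) : x (i + 1) ≤ strip x g i := by
  have h : x (i + 1) ≤ x i := hx (Nat.le_succ i)
  unfold strip
  omega

theorem strip_le (x : ℕ → ℕ) (g i : ℕ) : strip x g i ≤ x i + min g (x (i + 1)) := by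
  unfold strip
  omega

theorem strip_le' (x : ℕ → ℕ) (hx : Antitone x) (g i : ℕ) : strip x g i ≤ x i := by
  have h : x (i + 1) ≤ x i := hx (Nat.le_succ i)
  unfold strip
  omega

theorem strip_anti (x : ℕ → ℕ) (hx : Antitone x) (g : ℕ) : Antitone (strip x g) := by
  refine antitone_nat_of_succ_le fun i => ?_
  exact (strip_le' x hx g (i + 1)).trans (strip_ge x hx g i)

theorem strip_sum (x : ℕ → ℕ) (hx : Antitone x) (g s : ℕ) :
    ∑ i ∈ range s, strip x g i + min g (x 0) = ∑ i ∈ range s, x i + min g (x s) := by
  induction s with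
  | zero => simp
  | succ s ih =>
    rw [sum_range_succ, sum_range_succ]
    have h : strip x g s = (x s - g) + min g (x (s + 1)) := rfl
    omega

/-- The numbers lemma of the blueprint: labels strictly increasing down the columns with prescribed
multiplicities. -/
theorem numbers (p : ℕ) : ∀ (d x : ℕ → ℕ), Antitone d → Antitone x → ∀ N : ℕ,
    (∀ i, N ≤ i → x i = 0) →
    (∀ s, s ≤ p → ∑ i ∈ range s, d i ≤ ∑ i ∈ range s, x i) →
    ∑ i ∈ range p, d i = ∑ i ∈ range N, x i →
    ∃ Lbl : ℕ → ℕ → ℕ, (∀ i j, j < x i → Lbl i j < p) ∧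
      (∀ i j, j < x (i + 1) → Lbl i j < Lbl (i + 1) j) ∧
      ∀ v, v < p → ∑ i ∈ range N, ((range (x i)).filter fun j => Lbl i j = v).card = d v := by
  induction p with
  | zero =>
    intro d x hd hx N hN hs ht
    have h0 : ∀ i, x i = 0 := by
      intro i
      by_cases hi : N ≤ i
      · exact hN i hi
      · have h := ht.symm
        simp only [range_zero, sum_empty] at h
        exact (sum_eq_zero_iff.mp h) i (mem_range.mpr (not_le.mp hi))
    refine ⟨fun _ _ => 0, ?_, ?_, ?_⟩
    · intro i j hj; rw [h0 i] at hj; omega
    · intro i j hj; rw [h0 (i + 1)] at hj; omega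
    · intro v hv; omega
  | succ p ih =>
    intro d x hd hx N hN hs ht
    set g := d p with hg
    set y := strip x g with hy
    have hy_anti : Antitone y := strip_anti x hx g
    have hg_le : g ≤ x 0 := by
      have h1 := hs 1 (by omega)
      simp only [range_one, sum_singleton] at h1
      have h2 : d p ≤ d 0 := hd (Nat.zero_le p)
      omega
    have hmin : min g (x 0) = g := min_eq_left hg_le
    have hsum : ∀ s, ∑ i ∈ range s, y i + g = ∑ i ∈ range s, x i + min g (x s) := by
      intro s
      have := strip_sum x hx g s
      rw [hmin] at this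
      exact this
    have hyN : ∀ i, N ≤ i → y i = 0 := by
      intro i hi
      have h1 : x i = 0 := hN i hi
      have h2 : x (i + 1) = 0 := hN (i + 1) (by omega)
      simp only [hy, strip, h1, h2]
      simp
    have hdom' : ∀ s, s ≤ p → ∑ i ∈ range s, d i ≤ ∑ i ∈ range s, y i := by
      intro s hsp
      have h1 := hsum s
      by_cases hc : g ≤ x s
      · rw [min_eq_left hc] at h1
        have h2 := hs s (by omega)
        omega
      · rw [min_eq_right (by omega)] at h1
        have h2 := hs (s + 1) (by omega)
        rw [sum_range_succ, sum_range_succ] at h2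
        have h3 : d p ≤ d s := hd hsp
        omega
    have htot : ∑ i ∈ range p, d i = ∑ i ∈ range N, y i := by
      have h1 := hsum N
      rw [hN N le_rfl] at h1
      rw [sum_range_succ] at ht
      simp only [Nat.min_zero, add_zero] at h1
      omega
    obtain ⟨L, hL1, hL2, hL3⟩ := ih d y hd hy_anti N hyN hdom' htot
    have hy_le : ∀ i, y i ≤ x i := fun i => strip_le' x hx g i
    refine ⟨fun i j => if j < y i then L i j else p, ?_, ?_, ?_⟩
    · intro i j _
      by_cases hc : j < y i
      · simp only [hc, if_true]
        exact (hL1 i j hc).trans (Nat.lt_succ_self p)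
      · simp only [hc, if_false]
        exact Nat.lt_succ_self p
    · intro i j hj
      have h1 : j < y i := lt_of_lt_of_le hj (strip_ge x hx g i)
      simp only [h1, if_true]
      by_cases hc : j < y (i + 1)
      · simp only [hc, if_true]
        exact hL2 i j hc
      · simp only [hc, if_false]
        exact hL1 i j h1
    · intro v hv
      by_cases hvp : v < p
      · rw [← hL3 v hvp]
        refine sum_congr rfl fun i _ => ?_
        congr 1
        ext j
        simp only [mem_filter, mem_range]
        constructor
        · rintro ⟨_, h2⟩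
          by_cases hc : j < y i
          · simp only [hc, if_true] at h2
            exact ⟨hc, h2⟩
          · simp only [hc, if_false] at h2
            omega
        · rintro ⟨h1, h2⟩
          refine ⟨lt_of_lt_of_le h1 (hy_le i), ?_⟩
          simp only [h1, if_true]
          exact h2
      · have hvv : v = p := by omega
        subst hvv
        have hcount : ∀ i, ((range (x i)).filter fun j =>
            (if j < y i then L i j else v) = v).card = x i - y i := by
          intro i
          have : ((range (x i)).filter fun j => (if j < y i then L i j else v) = v)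
              = Finset.Ico (y i) (x i) := by
            ext j
            simp only [mem_filter, mem_range, mem_Ico]
            constructor
            · rintro ⟨h1, h2⟩
              by_cases hc : j < y i
              · simp only [hc, if_true] at h2
                have := hL1 i j hc
                omega
              · exact ⟨by omega, h1⟩
            · rintro ⟨h1, h2⟩
              refine ⟨h2, ?_⟩
              simp only [not_lt.mpr h1, if_false]
          rw [this, Nat.card_Ico]
        simp only [hcount]
        have hh : ∑ i ∈ range N, (x i - y i) + ∑ i ∈ range N, y i = ∑ i ∈ range N, x i := by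
          rw [← sum_add_distrib]
          refine sum_congr rfl fun i _ => ?_
          have := hy_le i
          omega
        have h1 := hsum N
        rw [hN N le_rfl] at h1
        simp only [Nat.min_zero, add_zero] at h1
        omega

/-- A Young diagram has as many cells as the sum of its row lengths. -/
theorem card_eq_sum_rowLen (ν : YoungDiagram) (N : ℕ) (hN : ∀ i, N ≤ i → ν.rowLen i = 0)
    (L : ℕ → ℕ → ℕ) (v : ℕ) :
    (ν.cells.filter fun c => L c.1 c.2 = v).card =
      ∑ i ∈ range N, ((range (ν.rowLen i)).filter fun j => L i j = v).card := by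
  have hmaps : ∀ c ∈ ν.cells.filter (fun c => L c.1 c.2 = v), c.1 ∈ range N := by
    intro c hc
    have h1 : c ∈ ν := (mem_filter.mp hc).1
    have h2 : c.2 < ν.rowLen c.1 := (ν.mem_iff_lt_rowLen (i := c.1) (j := c.2)).mp h1
    rw [mem_range]
    by_contra hcon
    have := hN c.1 (not_lt.mp hcon)
    omega
  rw [Finset.card_eq_sum_card_fiberwise hmaps]
  refine sum_congr rfl fun i _ => ?_
  refine Finset.card_bij (fun c _ => c.2) ?_ ?_ ?_
  · intro c hc
    simp only [mem_filter] at hc ⊢
    obtain ⟨⟨h1, h2⟩, h3⟩ := hc
    have h4 : c.2 < ν.rowLen c.1 := (ν.mem_iff_lt_rowLen (i := c.1) (j := c.2)).mp h1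
    rw [h3] at h4 h2
    exact ⟨mem_range.mpr h4, h2⟩
  · intro c hc c' hc' h
    simp only [mem_filter] at hc hc'
    exact Prod.ext (hc.2.trans hc'.2.symm) h
  · intro j hj
    simp only [mem_filter, mem_range] at hj
    refine ⟨(i, j), ?_, rfl⟩
    simp only [mem_filter]
    refine ⟨⟨?_, hj.2⟩, trivial⟩
    exact (ν.mem_iff_lt_rowLen (i := i) (j := j)).mpr hj.1

/-- **Labels.** If `ν` dominates the antitone sequence `d`, there is a filling of `ν` such that
labels `u` (with `d v` elements of label `v`) increase strictly down the columns. -/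
theorem exists_filling_labels {n : ℕ} (ν : YoungDiagram) (d : ℕ → ℕ) (hd : Antitone d)
    (hdom : ∀ s, ∑ i ∈ range s, d i ≤ ∑ i ∈ range s, ν.rowLen i)
    (u : Fin n → ℕ) (hu : ∀ v, (univ.filter fun x => u x = v).card = d v)
    (hcard : n = ν.card) :
    ∃ T : Filling n ν, ∀ x y, colOf T x = colOf T y → rowOf T x < rowOf T y → u x < u y := by
  classical
  set p := univ.sup u + 1 with hp
  have hup : ∀ x, u x < p := fun x => Nat.lt_succ_of_le (Finset.le_sup (f := u) (mem_univ x))
  set N := ν.colLen 0 with hNdef
  have hN : ∀ i, N ≤ i → ν.rowLen i = 0 := by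
    intro i hi
    by_contra hne
    have h1 : (i, 0) ∈ ν := (ν.mem_iff_lt_rowLen (i := i) (j := 0)).mpr (Nat.pos_of_ne_zero hne)
    have h2 : i < ν.colLen 0 := (ν.mem_iff_lt_colLen (i := i) (j := 0)).mp h1
    omega
  have hanti : Antitone ν.rowLen := fun a b hab => ν.rowLen_anti a b hab
  have hsumd : ∑ i ∈ range p, d i = n := by
    have hmaps : ∀ x ∈ (univ : Finset (Fin n)), u x ∈ range p := fun x _ => mem_range.mpr (hup x)
    have h := Finset.card_eq_sum_card_fiberwise hmaps
    simp only [card_univ, Fintype.card_fin] at h
    rw [h]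
    exact sum_congr rfl fun v _ => (hu v).symm
  have hsumx : ∑ i ∈ range N, ν.rowLen i = ν.card := by
    have h := card_eq_sum_rowLen ν N hN (fun _ _ => 0) 0
    simp only [filter_true_of_mem, card_range, implies_true] at h
    exact h.symm
  obtain ⟨L, hL1, hL2, hL3⟩ := numbers p d ν.rowLen hd hanti N hN (fun s _ => hdom s)
    (by rw [hsumd, hsumx, hcard])
  have hfib : ∀ v, Nonempty ({x : Fin n // u x = v} ≃
      {c : {c // c ∈ ν.cells} // L c.1.1 c.1.2 = v}) := by
    intro v
    refine ⟨Fintype.equivOfCardEq ?_⟩
    rw [Fintype.card_subtype, hu v, Fintype.card_subtype]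
    have hcells : (univ.filter fun c : {c // c ∈ ν.cells} => L c.1.1 c.1.2 = v).card
        = (ν.cells.filter fun c => L c.1 c.2 = v).card := by
      refine Finset.card_bij (fun c _ => c.1) ?_ ?_ ?_
      · intro c hc
        simp only [mem_filter, mem_univ, true_and] at hc ⊢
        exact ⟨c.2, hc⟩
      · intro c _ c' _ h
        exact Subtype.ext h
      · intro c hc
        simp only [mem_filter] at hc
        exact ⟨⟨c, hc.1⟩, by simpa using hc.2, rfl⟩
    rw [hcells, card_eq_sum_rowLen ν N hN L v]
    by_cases hv : v < p
    · exact (hL3 v hv).symm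
    · have h0 : d v = 0 := by
        rw [← hu v, card_eq_zero, filter_eq_empty_iff]
        intro x _ hx
        exact hv (hx ▸ hup x)
      rw [h0]
      symm
      refine sum_eq_zero fun i _ => ?_
      rw [card_eq_zero, filter_eq_empty_iff]
      intro j hj hj2
      have := hL1 i j (mem_range.mp hj)
      omega
  let T : Filling n ν := Equiv.ofFiberEquiv (f := u) (g := fun c : {c // c ∈ ν.cells} => L c.1.1 c.1.2)
    (fun v => (hfib v).some)
  have hT : ∀ x, L (T x).1.1 (T x).1.2 = u x := fun x =>
    Equiv.ofFiberEquiv_map (f := u) (g := fun c : {c // c ∈ ν.cells} => L c.1.1 c.1.2)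
      (fun v => (hfib v).some) x
  refine ⟨T, ?_⟩
  intro x y hc hr
  have hmono : ∀ k i j, j < ν.rowLen (i + k) → L i j ≤ L (i + k) j ∧ (0 < k → L i j < L (i + k) j) := by
    intro k
    induction k with
    | zero => intro i j _; simp
    | succ k ih =>
      intro i j hj
      have h1 : j < ν.rowLen (i + k) :=
        lt_of_lt_of_le hj (hanti (by omega))
      have h2 := (ih i j h1).1
      have h3 := hL2 (i + k) j (by simpa [add_assoc] using hj)
      have h4 : i + (k + 1) = i + k + 1 := by omega
      rw [h4]
      exact ⟨by omega, fun _ => by omega⟩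
  have hTy : (T y).1 ∈ ν := (T y).2
  have hrow : (T y).1.2 < ν.rowLen (T y).1.1 :=
    (ν.mem_iff_lt_rowLen (i := (T y).1.1) (j := (T y).1.2)).mp hTy
  rw [← hT x, ← hT y]
  have hcc : (T x).1.2 = (T y).1.2 := hc
  have hrr : (T x).1.1 < (T y).1.1 := hr
  rw [hcc]
  obtain ⟨k, hk⟩ := Nat.exists_eq_add_of_lt hrr
  have hk' : (T y).1.1 = (T x).1.1 + (k + 1) := by omega
  have := (hmono (k + 1) (T x).1.1 (T y).1.2 (by rw [← hk']; exact hrow)).2 (by omega)
  rw [← hk'] at this
  exact this

end Vale.Agent.Lib.P197B
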