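import Vale.Agent.Lib.P197B.PermIdeal

/-!
# P197B: the functional induction over the columns (blueprint Sec 2)
-/

open MvPolynomial Finset

namespace Vale.Agent.Lib.P197B

/-- Row lengths that are strictly decreasing until they vanish. -/
def IsStrictD (d : ℕ → ℕ) : Prop := ∀ u, d (u + 1) < d u ∨ (d u = 0 ∧ d (u + 1) = 0)

/-- The height of column `t`. -/
def height (P : ℕ) (d : ℕ → ℕ) (t : ℕ) : ℕ := ((range P).filter fun u => t < d u).card

variable {L : Type*} [Fintype L] [DecidableEq L]

/-- The monomial with row `u` filled by `l u t`, `t < d u`. -/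
noncomputable def monoD (P : ℕ) (d : ℕ → ℕ) (l : ℕ → ℕ → L) : MvPolynomial (ℕ × L) ℚ :=
  ∏ u ∈ range P, ∏ t ∈ range (d u), X (u, l u t)

private theorem exists_list_prod (c : L → ℕ) (s : Finset L) :
    ∃ Ls : List L, Ls.length = ∑ l ∈ s, c l ∧
      ∀ (R : Type _) [CommMonoid R] (f : L → R), (Ls.map f).prod = ∏ l ∈ s, f l ^ c l := by
  induction s using Finset.induction_on with
  | empty => exact ⟨[], by simp, by simp⟩
  | insert a s ha ih =>
    obtain ⟨Ls, h1, h2⟩ := ih
    refine ⟨List.replicate (c a) a ++ Ls, by simp [Finset.sum_insert ha, h1], ?_⟩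
    intro R _ f
    simp [Finset.prod_insert ha, h2 R f, List.map_replicate]

private theorem prod_range_getD {α R : Type*} [CommMonoid R] (Ls : List α) (a : α) (f : α → R) :
    ∏ t ∈ range Ls.length, f (Ls.getD t a) = (Ls.map f).prod := by
  induction Ls with
  | nil => simp
  | cons b Ls ih =>
    rw [List.length_cons, Finset.prod_range_succ']
    simp only [List.getD_cons_succ, List.getD_cons_zero, List.map_cons, List.prod_cons, ih]
    exact mul_comm _ _

/-- A monomial of the right multidegree is a `monoD`. -/
theorem exists_monoD (P : ℕ) (d : ℕ → ℕ) (hP : ∀ u, P ≤ u → d u = 0) [Nonempty L]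
    (m : (ℕ × L) →₀ ℕ) (hm : ∀ u, ∑ l, m (u, l) = d u) :
    ∃ l : ℕ → ℕ → L, monoD P d l = monomial m 1 := by
  classical
  have hex := fun u : ℕ => exists_list_prod (fun l : L => m (u, l)) (univ : Finset L)
  choose Ls hlen hprod using hex
  let a : L := Classical.arbitrary L
  refine ⟨fun u t => (Ls u).getD t a, ?_⟩
  have hlen' : ∀ u, (Ls u).length = d u := fun u => (hlen u).trans (hm u)
  unfold monoD
  have h1 : ∀ u, ∏ t ∈ range (d u), (X (u, (Ls u).getD t a) : MvPolynomial (ℕ × L) ℚ) =
      ∏ l, (X (u, l) : MvPolynomial (ℕ × L) ℚ) ^ m (u, l) := by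
    intro u
    rw [← hlen' u, prod_range_getD (Ls u) a (fun l => (X (u, l) : MvPolynomial (ℕ × L) ℚ))]
    exact hprod u _ _
  simp only [h1]
  rw [monomial_eq, C_1, one_mul, ← Finset.prod_product' (range P) univ
    (fun u l => (X (u, l) : MvPolynomial (ℕ × L) ℚ) ^ m (u, l))]
  rw [Finsupp.prod_of_support_subset m (s := range P ×ˢ univ) _ _ (fun _ _ => pow_zero _)]
  · intro x hx
    rw [Finsupp.mem_support_iff] at hx
    simp only [Finset.mem_product, Finset.mem_range, Finset.mem_univ, and_true]
    by_contra hlt
    have h0 := hP x.1 (not_lt.mp hlt)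
    rw [← hm x.1, Finset.sum_eq_zero_iff] at h0
    exact hx (h0 x.2 (Finset.mem_univ _))

theorem IsStrictD.antitone' {d : ℕ → ℕ} (hd : IsStrictD d) : Antitone d :=
  antitone_nat_of_succ_le (fun u => by rcases hd u with h | ⟨h1, h2⟩ <;> omega)

/-- The rows reaching past `t` are exactly the first `height` rows. -/
theorem lt_height_iff {P : ℕ} {d : ℕ → ℕ} (hd : IsStrictD d) (hP : ∀ u, P ≤ u → d u = 0)
    (t u : ℕ) : u < height P d t ↔ t < d u := by
  classical
  have hex : ∃ q, d q ≤ t := ⟨P, by rw [hP P le_rfl]; omega⟩
  set q := Nat.find hex with hq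
  have hq1 : d q ≤ t := Nat.find_spec hex
  have hq2 : ∀ v, v < q → t < d v := fun v hv => by
    have := Nat.find_min hex hv
    omega
  have hqP : q ≤ P := Nat.find_min' hex (by rw [hP P le_rfl]; omega)
  have hS : (range P).filter (fun u => t < d u) = range q := by
    ext v
    simp only [mem_filter, mem_range]
    constructor
    · rintro ⟨_, h⟩
      by_contra hv
      have := hd.antitone' (not_lt.mp hv)
      omega
    · intro hv
      exact ⟨by omega, hq2 v hv⟩
  have hh : height P d t = q := by
    unfold height
    rw [hS, card_range]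
  rw [hh]
  constructor
  · exact hq2 u
  · intro h
    by_contra hu
    have := hd.antitone' (not_lt.mp hu)
    omega

theorem le_d_of_lt {d : ℕ → ℕ} (hd : IsStrictD d) {p : ℕ} (hp : ∀ u, u < p → 0 < d u) :
    ∀ n u, u + n + 1 = p → n + 1 ≤ d u := by
  intro n
  induction n with
  | zero =>
    intro u hu
    have := hp u (by omega)
    omega
  | succ n ih =>
    intro u hu
    have h1 := ih (u + 1) (by omega)
    have h2 := hp u (by omega)
    rcases hd u with h | ⟨h3, _⟩ <;> omega

theorem IsStrictD.pred {d : ℕ → ℕ} (hd : IsStrictD d) : IsStrictD (fun u => d u - 1) := by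
  intro u
  rcases hd u with h | ⟨h1, h2⟩
  · by_cases h0 : d (u + 1) = 0
    · by_cases h1 : d u = 1
      · right
        simp only
        omega
      · left
        simp only
        omega
    · left
      simp only
      omega
  · right
    simp only
    omega

theorem height_pred (P : ℕ) (d : ℕ → ℕ) (t : ℕ) :
    height P (fun u => d u - 1) t = height P d (t + 1) := by
  unfold height
  congr 1
  ext u
  simp only [mem_filter, mem_range]
  omega

theorem prod_X_monomial {ι σ : Type*} [DecidableEq σ] (s : Finset ι) (f : ι → σ) :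
    (∏ i ∈ s, (X (f i) : MvPolynomial σ ℚ)) = monomial (∑ i ∈ s, Finsupp.single (f i) 1) 1 := by
  rw [monomial_sum_one]
  rfl

theorem sum_single_row (p u : ℕ) (J : Fin p → L) :
    ∑ l, (∑ v : Fin p, Finsupp.single ((v : ℕ), J v) 1 : (ℕ × L) →₀ ℕ) (u, l) =
      if u < p then 1 else 0 := by
  classical
  simp only [Finsupp.coe_finsetSum, Finset.sum_apply, Finsupp.single_apply, Prod.mk.injEq]
  rw [Finset.sum_comm]
  have h1 : ∀ v : Fin p, (∑ l : L, if (v : ℕ) = u ∧ J v = l then 1 else 0) =
      if (v : ℕ) = u then 1 else 0 := by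
    intro v
    by_cases hv : (v : ℕ) = u
    · simp [hv]
    · simp [hv]
  simp only [h1]
  by_cases hu : u < p
  · rw [if_pos hu, Finset.sum_eq_single (⟨u, hu⟩ : Fin p)]
    · simp
    · intro b _ hb
      rw [if_neg]
      intro h
      exact hb (Fin.ext h)
    · simp
  · rw [if_neg hu]
    apply Finset.sum_eq_zero
    intro v _
    rw [if_neg]
    have := v.2
    omega

/-- **Functional induction.** -/
theorem functional_vanish [Nonempty L] (P : ℕ) (d : ℕ → ℕ) (hd : IsStrictD d)
    (hP : ∀ u, P ≤ u → d u = 0) (lam : MvPolynomial (ℕ × L) ℚ →ₗ[ℚ] ℚ)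
    (hZ : ∀ m : (ℕ × L) →₀ ℕ, (∃ u, ∑ l, m (u, l) ≠ d u) → lam (monomial m 1) = 0)
    (hC : ∀ I : ℕ → ℕ → L, lam (∏ t ∈ range (d 0), per (height P d t) (I t)) = 0)
    (l : ℕ → ℕ → L) : lam (monoD P d l) = 0 := by
  classical
  obtain ⟨k, hk⟩ : ∃ k, d 0 = k := ⟨_, rfl⟩
  induction k generalizing d lam l with
  | zero =>
    have hall : ∀ u, d u = 0 := fun u => by
      have := hd.antitone' (Nat.zero_le u)
      omega
    have h1 : monoD P d l = 1 := by
      unfold monoD
      apply Finset.prod_eq_one
      intro u _
      rw [hall u]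
      simp
    have h2 := hC (fun _ _ => Classical.arbitrary L)
    rw [hk] at h2
    simp only [range_zero, prod_empty] at h2
    rw [h1, h2]
  | succ k ih =>
    set p := height P d 0 with hp_def
    have hlt : ∀ u, u < p ↔ 0 < d u := fun u => lt_height_iff hd hP 0 u
    have hpP : p ≤ P := by
      by_contra hc
      have h1 := (hlt P).mp (by omega)
      have h2 := hP P le_rfl
      omega
    have hzero : ∀ u, p ≤ u → d u = 0 := fun u hu => by
      have := (hlt u).not.mp (by omega)
      omega
    have hle : ∀ u, u < p → p - u ≤ d u := fun u hu => by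
      have := le_d_of_lt hd (fun v hv => (hlt v).mp hv) (p - u - 1) u (by omega)
      omega
    -- the shifted data
    have hd' := hd.pred
    have hP' : ∀ u, P ≤ u → (fun u => d u - 1) u = 0 := fun u hu => by
      simp only [hP u hu]
    have hall : ∀ (I0 : ℕ → L) (G : MvPolynomial (ℕ × L) ℚ), lam (per p I0 * G) = 0 := by
      intro I0
      set lam' : MvPolynomial (ℕ × L) ℚ →ₗ[ℚ] ℚ := lam.comp (LinearMap.mulLeft ℚ (per p I0))
        with hlam'
      have hlam'_apply : ∀ G, lam' G = lam (per p I0 * G) := fun G => rfl
      have hZ' : ∀ m : (ℕ × L) →₀ ℕ, (∃ u, ∑ l, m (u, l) ≠ (fun u => d u - 1) u) →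
          lam' (monomial m 1) = 0 := by
        rintro m ⟨u0, hu0⟩
        rw [hlam'_apply]
        unfold per
        rw [Finset.sum_mul, map_sum]
        apply Finset.sum_eq_zero
        intro π _
        rw [prod_X_monomial, monomial_mul, one_mul]
        apply hZ
        by_contra hcon
        push Not at hcon
        apply hu0
        have hrow := hcon u0
        rw [Finsupp.coe_add] at hrow
        simp only [Pi.add_apply] at hrow
        rw [Finset.sum_add_distrib] at hrow
        have := sum_single_row p u0 (fun v => I0 (π v))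
        rw [this] at hrow
        by_cases hu : u0 < p
        · rw [if_pos hu] at hrow
          simp only
          omega
        · rw [if_neg hu] at hrow
          have := hzero u0 (not_lt.mp hu)
          simp only
          omega
      have hC' : ∀ I : ℕ → ℕ → L, lam' (∏ t ∈ range ((fun u => d u - 1) 0),
          per (height P (fun u => d u - 1) t) (I t)) = 0 := by
        intro I
        rw [hlam'_apply]
        have h0 : (fun u => d u - 1) 0 = k := by simp only [hk]; omega
        rw [h0]
        have h1 := hC (fun t => Nat.casesOn t I0 I)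
        rw [hk, Finset.prod_range_succ'] at h1
        simp only [Nat.rec_zero] at h1
        rw [mul_comm] at h1
        convert h1 using 3
        apply Finset.prod_congr rfl
        intro t _
        rw [height_pred]
      have hmono : ∀ m : (ℕ × L) →₀ ℕ, lam' (monomial m 1) = 0 := by
        intro m
        by_cases hm : ∀ u, ∑ l, m (u, l) = (fun u => d u - 1) u
        · obtain ⟨l', hl'⟩ := exists_monoD P (fun u => d u - 1) hP' m hm
          rw [← hl']
          exact ih (fun u => d u - 1) hd' hP' lam' hZ' hC' l' (by simp only [hk]; omega)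
        · push Not at hm
          exact hZ' m hm
      intro G
      rw [← hlam'_apply]
      induction G using MvPolynomial.induction_on' with
      | monomial u a =>
        have : monomial u a = a • (monomial u (1 : ℚ)) := by
          rw [smul_monomial]
          simp
        rw [this, map_smul, hmono u]
        simp
      | add p q hp hq => rw [map_add, hp, hq, add_zero]
    -- extend to the ideal
    have hideal : ∀ x ∈ Ideal.span (Set.range (per (L := L) p)), ∀ G, lam (x * G) = 0 := by
      intro x hx
      induction hx using Submodule.span_induction with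
      | mem x hx =>
        obtain ⟨I0, rfl⟩ := hx
        exact hall I0
      | zero => intro G; simp
      | add x y _ _ hx hy =>
        intro G
        rw [add_mul, map_add, hx, hy, add_zero]
      | smul a x _ hx =>
        intro G
        rw [smul_eq_mul, mul_comm a x, mul_assoc]
        exact hx _
    -- factor the monomial
    have hfac : monoD P d l = (∏ u ∈ range p, ∏ t ∈ range (p - u), (X (u, l u t) : MvPolynomial (ℕ × L) ℚ)) *
        ((∏ u ∈ range p, ∏ t ∈ Ico (p - u) (d u), (X (u, l u t) : MvPolynomial (ℕ × L) ℚ))) := by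
      unfold monoD
      rw [← Finset.prod_mul_distrib]
      have h1 : ∏ u ∈ range P, ∏ t ∈ range (d u), (X (u, l u t) : MvPolynomial (ℕ × L) ℚ) =
          ∏ u ∈ range p, ∏ t ∈ range (d u), (X (u, l u t) : MvPolynomial (ℕ × L) ℚ) := by
        symm
        apply Finset.prod_subset (Finset.range_subset_range.mpr hpP)
        intro u _ hu
        rw [hzero u (by simpa using hu)]
        simp
      rw [h1]
      apply Finset.prod_congr rfl
      intro u hu
      rw [Finset.prod_range_mul_prod_Ico _ (hle u (by simpa using hu))]
    rw [hfac]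
    exact hideal _ (mono_mem_ideal p l) _

end Vale.Agent.Lib.P197B
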