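import Vale.Agent.Lib.P197B.Shape

/-!
# P197B: the pairing and the non vanishing of the diagonal polynomial (blueprint Sec 4)
-/

open MvPolynomial Finset Equiv

namespace Vale.Agent.Lib.P197B

open Vale.Agent.Lib.P197W

variable {n N : ℕ}

/-- The bideterminant polynomial of the labels `u` on the filling `(r, c)`. -/
noncomputable def hP (u r c : Fin n → ℕ) (hr : ∀ x, r x < N) : MvPolynomial (ℕ × Fin N) ℚ :=
  ∑ q ∈ colS c, C ((sgnZ q : ℤ) : ℚ) * ∏ x, X (u x, (⟨r (q x), hr _⟩ : Fin N))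

/-- The diagonal polynomial. -/
noncomputable def phiP (u a r c : Fin n → ℕ) (hr : ∀ x, r x < N) : MvPolynomial (ℕ × Fin N) ℚ :=
  ∑ b ∈ colS u, ∑ q ∈ colS c, C ((sgnZ q : ℤ) : ℚ) * ∏ x, X (a (b x), (⟨r (q x), hr _⟩ : Fin N))

/-- The weighted pairing with `H`. -/
noncomputable def lamH (n : ℕ) (H : MvPolynomial (ℕ × Fin N) ℚ) :
    MvPolynomial (ℕ × Fin N) ℚ →ₗ[ℚ] ℚ where
  toFun P := ∑ m ∈ H.support, (wF (n := n) m : ℚ) * coeff m H * coeff m P
  map_add' := by
    intro P Q
    simp only [coeff_add, mul_add, Finset.sum_add_distrib]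
  map_smul' := by
    intro s P
    simp only [coeff_smul, smul_eq_mul, RingHom.id_apply, Finset.mul_sum]
    exact Finset.sum_congr rfl fun m _ => by ring

/-- `prod_X_eq` over the rationals. -/
theorem prod_X_eq_Q {V : Type*} (φ : Fin n → V) :
    ∏ x, (X (φ x) : MvPolynomial V ℚ) = monomial (degF φ) 1 := by
  classical
  have h : ∀ s : Finset (Fin n), ∏ x ∈ s, (X (φ x) : MvPolynomial V ℚ) =
      monomial (∑ x ∈ s, Finsupp.single (φ x) 1) 1 := by
    intro s
    induction s using Finset.induction_on with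
    | empty => simp
    | insert a s ha ih =>
      rw [Finset.prod_insert ha, Finset.sum_insert ha, ih, X, monomial_mul, one_mul]
  exact h univ

theorem coeff_C_mul_prod {V : Type*} [DecidableEq V] (s : ℚ) (φ : Fin n → V) (m : V →₀ ℕ) :
    coeff m (C s * ∏ x, (X (φ x) : MvPolynomial V ℚ)) = s * if degF φ = m then 1 else 0 := by
  classical
  rw [prod_X_eq_Q, coeff_C_mul, coeff_monomial]

theorem wF_mul_ite {V : Type*} [DecidableEq V] (φ ψ : Fin n → V) :
    (wF (n := n) (degF ψ) : ℚ) * (if degF φ = degF ψ then 1 else 0) = (nF φ ψ : ℚ) := by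
  by_cases h : degF φ = degF ψ
  · rw [if_pos h, mul_one, nF_eq_wF h, h]
  · rw [if_neg h, mul_zero, nF_eq_zero h]; simp

theorem lamH_monomial (H : MvPolynomial (ℕ × Fin N) ℚ) (m : (ℕ × Fin N) →₀ ℕ) :
    lamH n H (monomial m 1) = (wF (n := n) m : ℚ) * coeff m H := by
  classical
  show ∑ m' ∈ H.support, (wF (n := n) m' : ℚ) * coeff m' H * coeff m' (monomial m 1) = _
  simp only [coeff_monomial, mul_ite, mul_one, mul_zero]
  rw [Finset.sum_ite_eq]
  split_ifs with h
  · rfl
  · rw [notMem_support_iff.mp h, mul_zero]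

/-- Value of the pairing on a labelling. -/
theorem lamH_prod (u r c : Fin n → ℕ) (hr : ∀ x, r x < N) (l : Fin n → Fin N) :
    lamH n (hP u r c hr) (∏ x, X (u x, l x)) =
      ∑ q ∈ colS c, ((sgnZ q : ℤ) : ℚ) *
        (nF (fun x => (u x, (⟨r (q x), hr _⟩ : Fin N))) (fun x => (u x, l x)) : ℚ) := by
  classical
  have h1 : (∏ x, (X (u x, l x) : MvPolynomial (ℕ × Fin N) ℚ)) =
      monomial (degF fun x => (u x, l x)) 1 := prod_X_eq_Q (fun x => (u x, l x))
  rw [h1, lamH_monomial, hP, coeff_sum, Finset.mul_sum]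
  refine Finset.sum_congr rfl fun q _ => ?_
  have h2 := coeff_C_mul_prod ((sgnZ q : ℤ) : ℚ)
    (fun x => (u x, (⟨r (q x), hr _⟩ : Fin N))) (degF fun x => (u x, l x))
  have h3 := wF_mul_ite (fun x => (u x, (⟨r (q x), hr _⟩ : Fin N))) (fun x => (u x, l x))
  rw [h2, ← h3]
  ring

/-- The combinatorial heart of the double count. -/
theorem orbit_count (u a : Fin n → ℕ) {N : ℕ} (L l : Fin n → Fin N) :
    ∑ c' ∈ colS a, nF (fun x => (u x, L x)) (fun x => (u x, l (c' x))) =
      ∑ b ∈ colS u, nF (fun x => (a (b x), L x)) (fun x => (a x, l x)) := by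
  classical
  unfold nF
  rw [← Finset.card_sigma, ← Finset.card_sigma]
  refine Finset.card_bij' (fun z _ => ⟨z.2⁻¹, z.2 * z.1⁻¹⟩) (fun z _ => ⟨(z.1 * z.2)⁻¹, z.1⁻¹⟩)
    ?_ ?_ ?_ ?_
  · rintro ⟨c', p⟩ hz
    simp only [mem_sigma, mem_filter, mem_univ, true_and, colS, Prod.mk.injEq] at hz ⊢
    obtain ⟨hc, hp⟩ := hz
    refine ⟨fun x => ?_, fun x => ⟨?_, ?_⟩⟩
    · have := (hp (p⁻¹ x)).1
      simpa using this.symm
    · have := hc (c'⁻¹ x)
      simpa [Perm.mul_apply] using this.symm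
    · have := (hp (c'⁻¹ x)).2
      simpa [Perm.mul_apply] using this
  · rintro ⟨b, k⟩ hz
    simp only [mem_sigma, mem_filter, mem_univ, true_and, colS, Prod.mk.injEq] at hz ⊢
    obtain ⟨hb, hk⟩ := hz
    refine ⟨fun x => ?_, fun x => ⟨?_, ?_⟩⟩
    · have := (hk ((b * k)⁻¹ x)).1
      simpa [Perm.mul_apply] using this.symm
    · have := hb (b⁻¹ x)
      simpa using this.symm
    · have := (hk ((b * k)⁻¹ x)).2
      simpa [Perm.mul_apply] using this
  · rintro ⟨c', p⟩ _
    simp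
  · rintro ⟨b, k⟩ _
    simp

/-- The double count: if the diagonal polynomial vanishes, the pairing kills column orbits. -/
theorem lamH_orbit (u a r c : Fin n → ℕ) (hinj : ∀ x y, u x = u y → a x = a y → x = y)
    (hr : ∀ x, r x < N) (h0 : phiP u a r c hr = 0) (l : Fin n → Fin N) :
    ∑ c' ∈ colS a, lamH n (hP u r c hr) (∏ x, X (u x, l (c' x))) = 0 := by
  classical
  have hc0 : (wF (n := n) (degF fun x => (a x, l x)) : ℚ) *
      coeff (degF fun x => (a x, l x)) (phiP u a r c hr) = 0 := by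
    rw [h0]; simp
  have hexp : (wF (n := n) (degF fun x => (a x, l x)) : ℚ) *
      coeff (degF fun x => (a x, l x)) (phiP u a r c hr) =
      ∑ q ∈ colS c, ((sgnZ q : ℤ) : ℚ) * ∑ b ∈ colS u,
        (nF (fun x => (a (b x), (⟨r (q x), hr _⟩ : Fin N))) (fun x => (a x, l x)) : ℚ) := by
    rw [phiP, coeff_sum, Finset.mul_sum]
    simp only [coeff_sum, Finset.mul_sum]
    rw [Finset.sum_comm]
    refine Finset.sum_congr rfl fun q _ => Finset.sum_congr rfl fun b _ => ?_
    have h2 := coeff_C_mul_prod ((sgnZ q : ℤ) : ℚ)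
      (fun x => (a (b x), (⟨r (q x), hr _⟩ : Fin N))) (degF fun x => (a x, l x))
    have h3 := wF_mul_ite (fun x => (a (b x), (⟨r (q x), hr _⟩ : Fin N))) (fun x => (a x, l x))
    rw [h2, ← h3]
    ring
  rw [hexp] at hc0
  rw [← hc0]
  simp only [lamH_prod]
  rw [Finset.sum_comm]
  refine Finset.sum_congr rfl fun q _ => ?_
  rw [← Finset.mul_sum]
  congr 1
  have := orbit_count u a (fun x => (⟨r (q x), hr _⟩ : Fin N)) l
  exact_mod_cast this

/-- The triangularity behind the leading coefficient. -/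
theorem eq_one_of_degF (u r c : Fin n → ℕ) (hr : ∀ x, r x < N)
    (hinj : ∀ x y, r x = r y → c x = c y → x = y)
    (hinit : ∀ x, ∀ r' < r x, ∃ y, c y = c x ∧ r y = r')
    (hs : ∀ x y, c x = c y → r x < r y → u x < u y)
    (q : Perm (Fin n)) (hq : ∀ x, c (q x) = c x)
    (hd : (degF fun x => (u x, (⟨r (q x), hr _⟩ : Fin N))) =
      degF fun x => (u x, (⟨r x, hr x⟩ : Fin N))) : q = 1 := by
  classical
  obtain ⟨π, hπ⟩ := exists_perm_of_degF hd
  have hπu : ∀ x, u (π x) = u x := fun x => by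
    have := hπ x
    simp only [Prod.mk.injEq] at this
    exact this.1
  have hπr : ∀ x, r (q (π x)) = r x := fun x => by
    have := hπ x
    simp only [Prod.mk.injEq, Fin.mk.injEq] at this
    exact this.2
  have key : ∀ v, ∀ x, u x = v → q x = x := by
    intro v
    induction v using Nat.strong_induction_on with
    | _ v ih =>
      have hle : ∀ x, u x = v → r x ≤ r (q x) := by
        intro x hx
        by_contra hlt
        rw [not_le] at hlt
        obtain ⟨y, hy1, hy2⟩ := hinit x _ hlt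
        have hyq : y = q x := hinj y (q x) hy2 (by rw [hy1, hq])
        have hlt' : u y < u x := hs y x hy1 (by rw [hy2]; exact hlt)
        have hqy : q y = y := ih (u y) (by omega) y rfl
        rw [hyq] at hqy
        have hqx : q x = x := q.injective hqy
        rw [hqx] at hlt
        exact lt_irrefl _ hlt
      have hsum : ∑ x ∈ univ.filter (fun x => u x = v), r x =
          ∑ x ∈ univ.filter (fun x => u x = v), r (q x) := by
        refine Finset.sum_equiv π ?_ ?_
        · intro x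
          simp [hπu]
        · intro x _
          exact (hπr x).symm
      have heq := (Finset.sum_eq_sum_iff_of_le (fun x hx => hle x (by simpa using hx))).1 hsum
      intro x hx
      have h1 := heq x (by simpa using hx)
      exact hinj _ _ h1.symm (hq x)
  ext x
  rw [key (u x) x rfl]
  rfl

/-- The leading coefficient of `hP`. -/
theorem hP_leading (u r c : Fin n → ℕ) (hr : ∀ x, r x < N)
    (hinj : ∀ x y, r x = r y → c x = c y → x = y)
    (hinit : ∀ x, ∀ r' < r x, ∃ y, c y = c x ∧ r y = r')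
    (hs : ∀ x y, c x = c y → r x < r y → u x < u y) :
    coeff (degF fun x => (u x, (⟨r x, hr x⟩ : Fin N))) (hP u r c hr) = 1 := by
  classical
  rw [hP, coeff_sum]
  have h2 : ∀ q : Perm (Fin n), coeff (degF fun x => (u x, (⟨r x, hr x⟩ : Fin N)))
      (C ((sgnZ q : ℤ) : ℚ) * ∏ x, X (u x, (⟨r (q x), hr _⟩ : Fin N))) =
      ((sgnZ q : ℤ) : ℚ) * if (degF fun x => (u x, (⟨r (q x), hr _⟩ : Fin N))) =
        degF fun x => (u x, (⟨r x, hr x⟩ : Fin N)) then 1 else 0 := fun q =>
    coeff_C_mul_prod _ (fun x => (u x, (⟨r (q x), hr _⟩ : Fin N))) _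
  rw [Finset.sum_eq_single 1]
  · rw [h2]
    simp [sgnZ]
  · intro q hq hq1
    rw [h2, if_neg, mul_zero]
    intro hd
    refine hq1 (eq_one_of_degF u r c hr hinj hinit hs q ?_ hd)
    simpa [colS] using hq
  · intro h1
    exact absurd (by simp [colS]) h1

/-- The rational form of `prod_X_eq`. -/
private theorem prod_X_eq_rat_m {V : Type*} (φ : Fin n → V) :
    ∏ x, (X (φ x) : MvPolynomial V ℚ) = monomial (degF φ) 1 := by
  classical
  have h : ∀ s : Finset (Fin n), ∏ x ∈ s, (X (φ x) : MvPolynomial V ℚ) =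
      monomial (∑ x ∈ s, Finsupp.single (φ x) 1) 1 := by
    intro s
    induction s using Finset.induction_on with
    | empty => simp
    | insert a s ha ih =>
      rw [Finset.prod_insert ha, Finset.sum_insert ha, ih, X, monomial_mul, one_mul]
  exact h univ

/-- The pairing on a monomial. -/
private theorem lamH_monomial_m (H : MvPolynomial (ℕ × Fin N) ℚ) (m : (ℕ × Fin N) →₀ ℕ) :
    lamH n H (monomial m 1) = (wF (n := n) m : ℚ) * coeff m H := by
  change ∑ m' ∈ H.support, (wF (n := n) m' : ℚ) * coeff m' H * coeff m' (monomial m 1) = _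
  simp only [coeff_monomial, mul_ite, mul_one, mul_zero]
  rw [Finset.sum_ite_eq]
  split_ifs with hm
  · rfl
  · rw [notMem_support_iff.1 hm, mul_zero]

/-- **The diagonal polynomial does not vanish.** -/
theorem phiP_ne_zero {d : ℕ → ℕ} (u a r c : Fin n → ℕ) (P : ℕ) (hS : Shape u a d)
    (hd : IsStrictD d) (hP' : ∀ v, P ≤ v → d v = 0) (hN : 0 < N) (hr : ∀ x, r x < N)
    (hinj : ∀ x y, r x = r y → c x = c y → x = y)
    (hinit : ∀ x, ∀ r' < r x, ∃ y, c y = c x ∧ r y = r')
    (hs : ∀ x y, c x = c y → r x < r y → u x < u y) :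
    phiP u a r c hr ≠ 0 := by
  intro h0
  have : Nonempty (Fin N) := ⟨⟨0, hN⟩⟩
  have hZ : ∀ m : (ℕ × Fin N) →₀ ℕ, (∃ v, ∑ l, m (v, l) ≠ d v) →
      lamH n (hP u r c hr) (monomial m 1) = 0 := by
    rintro m ⟨v, hv⟩
    rw [lamH_monomial_m]
    have hcoeff : coeff m (hP u r c hr) = 0 := by
      unfold hP
      rw [coeff_sum]
      refine Finset.sum_eq_zero fun q _ => ?_
      rw [prod_X_eq_rat_m, coeff_C_mul, coeff_monomial]
      split_ifs with hm
      · exfalso
        apply hv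
        rw [← hm]
        exact sum_degF_row hS (fun x => (⟨r (q x), hr _⟩ : Fin N)) v
      · rw [mul_zero]
    rw [hcoeff, mul_zero]
  have hC : ∀ I : ℕ → ℕ → Fin N,
      lamH n (hP u r c hr) (∏ t ∈ range (d 0), per (height P d t) (I t)) = 0 := by
    intro I
    rw [← sum_colS_eq_prod P hS hd hP' I, map_sum]
    rw [← lamH_orbit u a r c hS.inj hr h0 (fun x => I (a x) (u x))]
    refine Finset.sum_congr rfl fun c' hc' => ?_
    have hc'' : ∀ x, a (c' x) = a x := (Finset.mem_filter.mp hc').2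
    simp only [hc'']
  obtain ⟨l', hl'⟩ := prod_X_eq_monoD P hS hP' (L := Fin N) (fun x => ⟨r x, hr x⟩)
  have key := functional_vanish P d hd hP' (lamH n (hP u r c hr)) hZ hC l'
  rw [← hl', prod_X_eq_rat_m, lamH_monomial_m, hP_leading u r c hr hinj hinit hs, mul_one] at key
  exact (wF_pos (n := n) _).ne' (by exact_mod_cast key)

/-- The diagonal restriction. -/
theorem polyF_ne_zero_of_phiP (u a r c : Fin n → ℕ) (hinj : ∀ x y, u x = u y → a x = a y → x = y)
    (hr : ∀ x, r x < N) (h : phiP u a r c hr ≠ 0) :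
    polyF a u a u r c ≠ 0 := by
  classical
  intro h0
  apply h
  -- the diagonal restriction as a ring map
  let g : ℕ × ℕ × ℕ → MvPolynomial (ℕ × Fin N) ℚ := fun p =>
    if hp : p.1 = p.2.1 ∧ p.2.2 < N then X (p.1, ⟨p.2.2, hp.2⟩) else 0
  let f : MvPolynomial (ℕ × ℕ × ℕ) ℤ →+* MvPolynomial (ℕ × Fin N) ℚ :=
    eval₂Hom (algebraMap ℤ (MvPolynomial (ℕ × Fin N) ℚ)) g
  have hX : ∀ p, f (X p) = g p := fun p => eval₂Hom_X' _ _ _
  have hC' : ∀ z : ℤ, f (C z) = C ((z : ℤ) : ℚ) := by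
    intro z
    have : f (C z) = algebraMap ℤ (MvPolynomial (ℕ × Fin N) ℚ) z := eval₂Hom_C _ _ _
    rw [this]
    simp
  have hterm : ∀ q₁ ∈ colS u, ∀ q₂ ∈ colS u, ∀ q₃ : Perm (Fin n),
      f (C (sgnZ q₁ * sgnZ q₂ * sgnZ q₃) * ∏ x, X (a (q₁ x), a (q₂ x), r (q₃ x))) =
        if q₁ = q₂ then
          C ((sgnZ q₃ : ℤ) : ℚ) * ∏ x, X (a (q₁ x), (⟨r (q₃ x), hr _⟩ : Fin N))
        else 0 := by
    intro q₁ hq₁ q₂ hq₂ q₃
    rw [map_mul, map_prod, hC']
    by_cases hq : q₁ = q₂
    · subst hq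
      rw [if_pos rfl]
      have hs : ((sgnZ q₁ * sgnZ q₁ * sgnZ q₃ : ℤ) : ℚ) = ((sgnZ q₃ : ℤ) : ℚ) := by
        have h1 : sgnZ q₁ * sgnZ q₁ = 1 := by
          simp only [sgnZ]
          rw [← Units.val_mul, Int.units_mul_self, Units.val_one]
        rw [h1, one_mul]
      rw [hs]
      congr 1
      refine Finset.prod_congr rfl fun x _ => ?_
      rw [hX]
      exact dif_pos ⟨rfl, hr _⟩
    · rw [if_neg hq]
      obtain ⟨x, hx⟩ : ∃ x, q₁ x ≠ q₂ x := by
        by_contra hcon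
        push Not at hcon
        exact hq (Equiv.ext hcon)
      have hu1 : u (q₁ x) = u x := (Finset.mem_filter.mp hq₁).2 x
      have hu2 : u (q₂ x) = u x := (Finset.mem_filter.mp hq₂).2 x
      have hne : a (q₁ x) ≠ a (q₂ x) := fun he => hx (hinj _ _ (hu1.trans hu2.symm) he)
      rw [Finset.prod_eq_zero (Finset.mem_univ x), mul_zero]
      rw [hX]
      exact dif_neg fun hp => hne hp.1
  have himg : f (polyF a u a u r c) = phiP u a r c hr := by
    unfold polyF phiP
    rw [map_sum]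
    refine Finset.sum_congr rfl fun q₁ hq₁ => ?_
    rw [map_sum]
    have hin : ∀ q₂ ∈ colS u, f (∑ q₃ ∈ colS c, C (sgnZ q₁ * sgnZ q₂ * sgnZ q₃) *
        ∏ x, X (a (q₁ x), a (q₂ x), r (q₃ x))) =
        if q₁ = q₂ then ∑ q₃ ∈ colS c, C ((sgnZ q₃ : ℤ) : ℚ) *
          ∏ x, X (a (q₁ x), (⟨r (q₃ x), hr _⟩ : Fin N)) else 0 := by
      intro q₂ hq₂
      rw [map_sum, Finset.sum_congr rfl fun q₃ _ => hterm q₁ hq₁ q₂ hq₂ q₃]
      split_ifs with hq
      · rfl
      · simp
    rw [Finset.sum_congr rfl hin, Finset.sum_ite_eq, if_pos hq₁]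
  rw [← himg, h0, map_zero]

end Vale.Agent.Lib.P197B
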