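import Mathlib

/-!
# P197B: permanents and products of linear forms (blueprint notes/P197B_blueprint.md, Sec 1)
-/

open MvPolynomial Finset

namespace Vale.Agent.Lib.P197B

/-- McCoy for a linear factor. -/
theorem mccoy_linear {C' : Type*} [CommRing C'] (α β : C') (G : Polynomial C') (m : ℕ)
    (hG : G.natDegree ≤ m)
    (h : (Polynomial.C α + Polynomial.C β * Polynomial.X) * G = 0) :
    Polynomial.C (β ^ (m + 1)) * G = 0 := by
  have hcoef : ∀ j, α * G.coeff (j + 1) + β * G.coeff j = 0 := by
    intro j
    have := congrArg (fun P => Polynomial.coeff P (j + 1)) h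
    simpa only [add_mul, Polynomial.coeff_add, Polynomial.coeff_C_mul, mul_assoc,
      Polynomial.coeff_X_mul, Polynomial.coeff_zero] using this
  have key : ∀ k j, m + 1 ≤ j + k → β ^ k * G.coeff j = 0 := by
    intro k
    induction k with
    | zero =>
      intro j hj
      simp only [pow_zero, one_mul]
      exact Polynomial.coeff_eq_zero_of_natDegree_lt (by omega)
    | succ k ih =>
      intro j hj
      have h1 := ih (j + 1) (by omega)
      have h2 := hcoef j
      have h3 : β * G.coeff j = -(α * G.coeff (j + 1)) := eq_neg_of_add_eq_zero_right h2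
      calc β ^ (k + 1) * G.coeff j = β ^ k * (β * G.coeff j) := by ring
        _ = β ^ k * (-(α * G.coeff (j + 1))) := by rw [h3]
        _ = -α * (β ^ k * G.coeff (j + 1)) := by ring
        _ = 0 := by rw [h1, mul_zero]
  ext j
  simp only [Polynomial.coeff_C_mul, Polynomial.coeff_zero]
  exact key (m + 1) j (by omega)

variable {L : Type*} [Fintype L] [DecidableEq L]

/-- The linear form with coefficients `f`. -/
noncomputable def lin {A : Type*} [CommRing A] (f : L → A) : MvPolynomial L A :=
  ∑ l, C (f l) * X l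

/-- The linear form with constant coefficients over the polynomials. -/
private noncomputable def linZ {A : Type*} [CommRing A] (f : L → A) :
    MvPolynomial L (MvPolynomial L A) :=
  ∑ l, C (C (f l)) * X l

private noncomputable def phiS {A : Type*} [CommRing A] :
    MvPolynomial L A →ₐ[A] Polynomial (MvPolynomial L (MvPolynomial L A)) :=
  aeval (fun l => Polynomial.C (C (X l)) + Polynomial.C (X l) * Polynomial.X)

private theorem phiS_lin {A : Type*} [CommRing A] (g : L → A) :
    phiS (lin g) = Polynomial.C (C (lin g)) + Polynomial.C (linZ g) * Polynomial.X := by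
  simp only [phiS, lin, linZ, map_sum, map_mul, aeval_C, aeval_X]
  rw [Finset.sum_mul, ← Finset.sum_add_distrib]
  refine Finset.sum_congr rfl fun l _ => ?_
  have : algebraMap A (Polynomial (MvPolynomial L (MvPolynomial L A))) (g l)
      = Polynomial.C (C (C (g l))) := rfl
  rw [this]
  ring

private theorem pderiv_linZ {A : Type*} [CommRing A] (f : L → A) (a : L) :
    pderiv a (linZ f) = C (C (f a)) := by
  classical
  simp only [linZ, map_sum, pderiv_C_mul, pderiv_X]
  rw [Finset.sum_eq_single a]
  · simp
  · intro b _ hb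
    simp [hb.symm]
  · simp

/-- One extraction step. -/
theorem step_extract {A : Type*} [CommRing A] [Algebra ℚ A] (W : A) (f : L → A)
    (g : ℕ → L → A) (r : ℕ)
    (h : (C W : MvPolynomial L A) * (lin f * ∏ i ∈ range r, lin (g i)) = 0) (l : ℕ → L) :
    (C (W * ∏ t ∈ range (r + 1), f (l t)) : MvPolynomial L A) * ∏ i ∈ range r, lin (g i) = 0 := by
  classical
  set e : MvPolynomial L A := (C W : MvPolynomial L A) * ∏ i ∈ range r, lin (g i) with he
  -- apply the substitution
  set G : Polynomial (MvPolynomial L (MvPolynomial L A)) :=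
    Polynomial.C (C (C W)) * ∏ i ∈ range r,
      (Polynomial.C (C (lin (g i))) + Polynomial.C (linZ (g i)) * Polynomial.X) with hGdef
  have h1 : (Polynomial.C (C (lin f)) + Polynomial.C (linZ f) * Polynomial.X) * G = 0 := by
    have := congrArg (phiS (L := L) (A := A)) h
    rw [map_mul, map_mul, map_prod, phiS_lin, map_zero] at this
    simp only [phiS_lin] at this
    have hW : phiS (C W : MvPolynomial L A) = Polynomial.C (C (C W)) := by
      simp only [phiS, aeval_C]
      rfl
    rw [hW] at this
    rw [hGdef, ← this]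
    ring
  have hdeg : G.natDegree ≤ r := by
    refine (Polynomial.natDegree_C_mul_le _ _).trans ?_
    refine (Polynomial.natDegree_prod_le _ _).trans ?_
    calc ∑ i ∈ range r, (Polynomial.C (C (lin (g i))) + Polynomial.C (linZ (g i)) * Polynomial.X :
            Polynomial (MvPolynomial L (MvPolynomial L A))).natDegree
        ≤ ∑ _i ∈ range r, 1 := Finset.sum_le_sum fun i _ => by
          rw [add_comm]
          exact Polynomial.natDegree_linear_le
      _ = r := by simp
  have h2 := mccoy_linear _ _ G r hdeg h1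
  -- the coefficient zero
  have hG0 : G.coeff 0 = C e := by
    rw [Polynomial.coeff_zero_eq_eval_zero, hGdef, he, Polynomial.eval_mul, Polynomial.eval_prod,
      map_mul, map_prod]
    simp
  have h3 : C e * linZ f ^ (r + 1) = 0 := by
    have := congrArg (fun P => Polynomial.coeff P 0) h2
    simp only [Polynomial.coeff_C_mul, Polynomial.coeff_zero, hG0] at this
    rw [mul_comm]
    exact this
  -- derivatives
  have key : ∀ k, k ≤ r + 1 → ∃ q : ℕ, q ≠ 0 ∧
      C ((q : MvPolynomial L A) * (C (∏ t ∈ range k, f (l t)) * e)) * linZ f ^ (r + 1 - k) = 0 := by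
    intro k
    induction k with
    | zero =>
      intro _
      refine ⟨1, one_ne_zero, ?_⟩
      simpa using h3
    | succ k ih =>
      intro hk
      obtain ⟨q, hq, hk'⟩ := ih (by omega)
      obtain ⟨j, hj⟩ : ∃ j, r + 1 - k = j + 1 := ⟨r - k, by omega⟩
      have hj' : r + 1 - (k + 1) = j := by omega
      rw [hj] at hk'
      have hd := congrArg (pderiv (l k)) hk'
      rw [pderiv_C_mul, Derivation.leibniz_pow, map_zero, pderiv_linZ] at hd
      refine ⟨q * (j + 1), by positivity, ?_⟩
      rw [hj', Finset.prod_range_succ]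
      simp only [Nat.add_sub_cancel, smul_eq_mul, nsmul_eq_mul] at hd
      have hC : (C ((((q * (j + 1) : ℕ) : MvPolynomial L A)) *
          (C ((∏ t ∈ range k, f (l t)) * f (l k)) * e)) : MvPolynomial L (MvPolynomial L A)) * linZ f ^ j =
          C ((q : MvPolynomial L A) * (C (∏ t ∈ range k, f (l t)) * e)) *
            (((j + 1 : ℕ) : MvPolynomial L (MvPolynomial L A)) * (linZ f ^ j * C (C (f (l k))))) := by
        simp only [map_mul, map_natCast, Nat.cast_mul]
        ring
      rw [hC]
      exact hd
  obtain ⟨q, hq, hk⟩ := key (r + 1) le_rfl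
  simp only [Nat.sub_self, pow_zero, mul_one] at hk
  have hk2 : (q : MvPolynomial L A) * (C (∏ t ∈ range (r + 1), f (l t)) * e) = 0 :=
    (MvPolynomial.C_eq_zero).mp hk 
  have hu : IsUnit (q : MvPolynomial L A) := by
    have h0 : IsUnit (q : ℚ) := isUnit_iff_ne_zero.mpr (by exact_mod_cast hq)
    have := h0.map (algebraMap ℚ (MvPolynomial L A))
    simpa using this
  have hk3 := (hu.mul_right_eq_zero).mp hk2
  rw [map_mul]
  calc C W * C (∏ t ∈ range (r + 1), f (l t)) * ∏ i ∈ range r, lin (g i)
      = C (∏ t ∈ range (r + 1), f (l t)) * e := by rw [he]; ring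
    _ = 0 := hk3

/-- Iterated extraction. -/
theorem chain {A : Type*} [CommRing A] [Algebra ℚ A] (a : ℕ → L → A) (r b : ℕ) (W : A)
    (h : (C W : MvPolynomial L A) * ∏ i ∈ range r, lin (a (b + i)) = 0) (l : ℕ → ℕ → L) :
    W * ∏ i ∈ range r, ∏ t ∈ range (r - i), a (b + i) (l (b + i) t) = 0 := by
  induction r generalizing b W with
  | zero =>
    simp only [range_zero, prod_empty, mul_one] at h ⊢
    exact (MvPolynomial.C_eq_zero).1 h
  | succ r ih =>
    have h' : (C W : MvPolynomial L A) * (lin (a b) * ∏ i ∈ range r, lin (a (b + 1 + i))) = 0 := by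
      rw [Finset.prod_range_succ', Nat.add_zero] at h
      have e : ∏ i ∈ range r, lin (a (b + (i + 1))) = ∏ i ∈ range r, lin (a (b + 1 + i)) :=
        Finset.prod_congr rfl fun i _ => by
          rw [show b + (i + 1) = b + 1 + i by omega]
      rw [e] at h
      rw [mul_comm (lin (a b))]
      exact h
    have h2 := step_extract W (a b) (fun i => a (b + 1 + i)) r h' (l b)
    have h3 := ih (b + 1) (W * ∏ t ∈ range (r + 1), a b (l b t)) h2
    rw [Finset.prod_range_succ', Nat.add_zero, Nat.sub_zero]
    have e : ∏ i ∈ range r, ∏ t ∈ range (r + 1 - (i + 1)), a (b + (i + 1)) (l (b + (i + 1)) t) =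
        ∏ i ∈ range r, ∏ t ∈ range (r - i), a (b + 1 + i) (l (b + 1 + i) t) :=
      Finset.prod_congr rfl fun i _ => by
        rw [show b + (i + 1) = b + 1 + i by omega, show r + 1 - (i + 1) = r - i by omega]
    rw [e, mul_comm (∏ i ∈ range r, _), ← mul_assoc]
    exact h3

/-- The permanent of the first `h` rows, with columns `I` (repetitions allowed). -/
noncomputable def per (h : ℕ) (I : ℕ → L) : MvPolynomial (ℕ × L) ℚ :=
  ∑ π : Equiv.Perm (Fin h), ∏ v : Fin h, X ((v : ℕ), I (π v))

/-- Expansion of a product of linear forms averaged over permutations. -/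
theorem fact_smul_prod_lin {A : Type*} [CommRing A] (p : ℕ) (a : Fin p → L → A) :
    ((Nat.factorial p : ℕ) : MvPolynomial L A) * ∏ i : Fin p, lin (a i) =
      ∑ J : Fin p → L, (∏ i, (X (J i) : MvPolynomial L A)) *
        C (∑ π : Equiv.Perm (Fin p), ∏ i, a i (J (π i))) := by
  have h1 : ∏ i : Fin p, lin (a i) =
      ∑ J : Fin p → L, ∏ i, ((C (a i (J i)) : MvPolynomial L A) * X (J i)) := by
    unfold lin
    rw [Finset.prod_univ_sum, Fintype.piFinset_univ]
  have h2 : ∀ π : Equiv.Perm (Fin p), ∏ i : Fin p, lin (a i) =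
      ∑ J : Fin p → L, (∏ i, (X (J i) : MvPolynomial L A)) * C (∏ i, a i (J (π i))) := by
    intro π
    rw [h1]
    refine (Equiv.sum_comp (Equiv.arrowCongr π.symm (Equiv.refl L)) _).symm.trans ?_
    refine Finset.sum_congr rfl fun J _ => ?_
    have e : ∀ i, (Equiv.arrowCongr π.symm (Equiv.refl L)) J i = J (π i) := by
      intro i
      simp [Equiv.arrowCongr]
    simp only [e, Finset.prod_mul_distrib, map_prod]
    rw [mul_comm]
    congr 1
    exact Equiv.prod_comp π (fun i => (X (J i) : MvPolynomial L A))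
  have h3 : ((Nat.factorial p : ℕ) : MvPolynomial L A) * ∏ i : Fin p, lin (a i) =
      ∑ _π : Equiv.Perm (Fin p), ∏ i : Fin p, lin (a i) := by
    rw [Finset.sum_const, Finset.card_univ, Fintype.card_perm, Fintype.card_fin, nsmul_eq_mul]
  rw [h3]
  rw [Finset.sum_congr rfl (fun π _ => h2 π), Finset.sum_comm]
  refine Finset.sum_congr rfl fun J _ => ?_
  rw [← Finset.mul_sum, map_sum]

/-- In the quotient by the permanents the product of the generic linear forms vanishes. -/
theorem prod_lin_quot [Nonempty L] (p : ℕ) :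
    let Q := MvPolynomial (ℕ × L) ℚ ⧸ Ideal.span (Set.range (per (L := L) p))
    ∏ i ∈ range p, lin (fun l : L => (Ideal.Quotient.mk _ (X (i, l)) : Q)) = 0 := by
  intro Q
  classical
  set a : Fin p → L → Q := fun i l => Ideal.Quotient.mk _ (X ((i : ℕ), l)) with ha
  have e1 : ∏ i ∈ range p, lin (fun l : L => (Ideal.Quotient.mk _ (X (i, l)) : Q)) =
      ∏ i : Fin p, lin (a i) := by
    rw [Finset.prod_range]
  rw [e1]
  have h := fact_smul_prod_lin p a
  have hz : ∀ J : Fin p → L, ∑ π : Equiv.Perm (Fin p), ∏ i, a i (J (π i)) = 0 := by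
    intro J
    let I : ℕ → L := fun k => if hk : k < p then J ⟨k, hk⟩ else Classical.arbitrary L
    have hI : ∀ k : Fin p, I k = J k := by
      intro k
      simp [I, k.2]
    have e : ∑ π : Equiv.Perm (Fin p), ∏ i, a i (J (π i)) =
        Ideal.Quotient.mk _ (per (L := L) p I) := by
      have ep : per (L := L) p I = ∑ π : Equiv.Perm (Fin p), ∏ v : Fin p, X ((v : ℕ), I (π v)) := rfl
      rw [ep, map_sum]
      refine Finset.sum_congr rfl fun π _ => ?_
      rw [map_prod]
      refine Finset.prod_congr rfl fun v _ => ?_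
      rw [hI]
    rw [e, Ideal.Quotient.eq_zero_iff_mem]
    exact Ideal.subset_span ⟨I, rfl⟩
  simp only [hz, map_zero, mul_zero, Finset.sum_const_zero] at h
  have hq : ((Nat.factorial p : ℕ) : ℚ) ≠ 0 := by
    exact_mod_cast Nat.factorial_ne_zero p
  have h' : ((Nat.factorial p : ℕ) : ℚ) • ∏ i : Fin p, lin (a i) = 0 := by
    rw [Nat.cast_smul_eq_nsmul, nsmul_eq_mul]
    exact h
  exact (smul_eq_zero.1 h').resolve_left hq

/-- **Every monomial of multidegree `(p, p-1, ..., 1)` lies in the ideal of permanents.** -/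
theorem mono_mem_ideal [Nonempty L] (p : ℕ) (l : ℕ → ℕ → L) :
    ∏ u ∈ range p, ∏ t ∈ range (p - u), (X (u, l u t) : MvPolynomial (ℕ × L) ℚ) ∈
      Ideal.span (Set.range (per (L := L) p)) := by
  rw [← Ideal.Quotient.eq_zero_iff_mem]
  let Q := MvPolynomial (ℕ × L) ℚ ⧸ Ideal.span (Set.range (per (L := L) p))
  have h0 := prod_lin_quot (L := L) p
  have h1 := chain (A := Q) (fun i l => (Ideal.Quotient.mk _ (X (i, l)) : Q)) p 0 1 (by
    simp only [Nat.zero_add, map_one, one_mul]
    exact h0) l
  simp only [Nat.zero_add, one_mul] at h1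
  rw [map_prod]
  simp only [map_prod]
  exact h1

end Vale.Agent.Lib.P197B
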