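import Vale.Agent.Lib.P197W.Pos
import Vale.Agent.Lib.P197B.MainInd

/-!
# P197B: cells of a strict shape and the dictionary for the columns (blueprint Sec 3)
-/

open MvPolynomial Finset Equiv

namespace Vale.Agent.Lib.P197B

open Vale.Agent.Lib.P197W

variable {n : ℕ}

/-- `x ↦ (u x, a x)` is a bijection from `Fin n` to the cells `{(v, t) : t < d v}`. -/
structure Shape (u a : Fin n → ℕ) (d : ℕ → ℕ) : Prop where
  cell : ∀ x, a x < d (u x)
  surj : ∀ v t, t < d v → ∃ x, u x = v ∧ a x = t
  inj : ∀ x y, u x = u y → a x = a y → x = y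

variable {L : Type*} [Fintype L] [DecidableEq L]

/-- Strict row lengths are antitone. -/
theorem strictD_antitone_aux {d : ℕ → ℕ} (hd : IsStrictD d) : Antitone d := by
  refine antitone_nat_of_succ_le fun u => ?_
  rcases hd u with h | h
  · exact h.le
  · omega

/-- The cells of column `t` are the rows below the height. -/
theorem lt_height_iff_aux {d : ℕ → ℕ} (hd : Antitone d) (P t v : ℕ) :
    (v < P ∧ t < d v) ↔ v < height P d t := by
  induction P generalizing v with
  | zero => simp [height]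
  | succ P ih =>
    have hstep : height (P + 1) d t = height P d t + if t < d P then 1 else 0 := by
      unfold height
      rw [Finset.range_add_one, Finset.filter_insert]
      split_ifs with h
      · rw [Finset.card_insert_of_notMem]
        simp
      · simp
    rw [hstep]
    by_cases h : t < d P
    · rw [if_pos h]
      have hall : ∀ w, w < P → w < height P d t := fun w hw =>
        (ih w).1 ⟨hw, lt_of_lt_of_le h (hd hw.le)⟩
      have hle : height P d t ≤ P := by
        by_contra hc
        have := (ih P).2 (by omega)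
        omega
      have heq : height P d t = P := by
        refine le_antisymm hle ?_
        by_contra hc
        have := hall (height P d t) (by omega)
        omega
      rw [heq]
      constructor
      · intro hv; omega
      · intro hv
        exact ⟨by omega, lt_of_lt_of_le h (hd (by omega))⟩
    · rw [if_neg h, add_zero, ← ih v]
      constructor
      · rintro ⟨h1, h2⟩
        refine ⟨?_, h2⟩
        rcases Nat.lt_succ_iff_lt_or_eq.1 h1 with h3 | h3
        · exact h3
        · subst h3; exact absurd h2 h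
      · rintro ⟨h1, h2⟩
        exact ⟨by omega, h2⟩

section dict

variable {u a : Fin n → ℕ} {d : ℕ → ℕ}

/-- The cell type. -/
private abbrev Cells (P : ℕ) (d : ℕ → ℕ) := Σ t : Fin (d 0), Fin (height P d t)

private theorem cells_ext {P : ℕ} {s s' : Cells P d} (h₁ : (s.1 : ℕ) = s'.1) (h₂ : (s.2 : ℕ) = s'.2) :
    s = s' := by
  rcases s with ⟨t, v⟩
  rcases s' with ⟨t', v'⟩
  obtain rfl : t = t' := Fin.ext h₁
  obtain rfl : v = v' := Fin.ext h₂
  rfl

private theorem a_lt_d0 (hS : Shape u a d) (hd : IsStrictD d) (x : Fin n) : a x < d 0 :=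
  lt_of_lt_of_le (hS.cell x) ((strictD_antitone_aux hd) (Nat.zero_le _))

private theorem u_lt_height (P : ℕ) (hS : Shape u a d) (hd : IsStrictD d) (hP : ∀ v, P ≤ v → d v = 0)
    (x : Fin n) : u x < height P d (a x) := by
  refine (lt_height_iff_aux (strictD_antitone_aux hd) P _ _).1 ⟨?_, hS.cell x⟩
  by_contra hc
  have := hP (u x) (by omega)
  have := hS.cell x
  omega

/-- The equivalence of the elements with the cells. -/
private noncomputable def cellEquiv (P : ℕ) (hS : Shape u a d) (hd : IsStrictD d)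
    (hP : ∀ v, P ≤ v → d v = 0) : Fin n ≃ Cells P d :=
  Equiv.ofBijective (fun x => ⟨⟨a x, a_lt_d0 hS hd x⟩, ⟨u x, u_lt_height P hS hd hP x⟩⟩) (by
    constructor
    · intro x y hxy
      have h₁ := congrArg (fun s : Cells P d => (s.1 : ℕ)) hxy
      have h₂ := congrArg (fun s : Cells P d => (s.2 : ℕ)) hxy
      exact hS.inj x y h₂ h₁
    · rintro ⟨t, v⟩
      have hv := ((lt_height_iff_aux (strictD_antitone_aux hd) P t v).2 v.2).2
      obtain ⟨x, hx₁, hx₂⟩ := hS.surj v t hv
      exact ⟨x, cells_ext hx₂ hx₁⟩)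

private theorem cellEquiv_fst (P : ℕ) (hS : Shape u a d) (hd : IsStrictD d)
    (hP : ∀ v, P ≤ v → d v = 0) (x : Fin n) : ((cellEquiv P hS hd hP x).1 : ℕ) = a x := rfl

private theorem cellEquiv_snd (P : ℕ) (hS : Shape u a d) (hd : IsStrictD d)
    (hP : ∀ v, P ≤ v → d v = 0) (x : Fin n) : ((cellEquiv P hS hd hP x).2 : ℕ) = u x := rfl

/-- The permutation of the elements from a family of column permutations. -/
private noncomputable def famPerm (P : ℕ) (hS : Shape u a d) (hd : IsStrictD d)
    (hP : ∀ v, P ≤ v → d v = 0) (pf : ∀ t : Fin (d 0), Perm (Fin (height P d t))) : Perm (Fin n) :=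
  ((cellEquiv P hS hd hP).trans (Equiv.Perm.sigmaCongrRight pf)).trans (cellEquiv P hS hd hP).symm

private theorem cell_famPerm (P : ℕ) (hS : Shape u a d) (hd : IsStrictD d)
    (hP : ∀ v, P ≤ v → d v = 0) (pf : ∀ t : Fin (d 0), Perm (Fin (height P d t))) (x : Fin n) :
    cellEquiv P hS hd hP (famPerm P hS hd hP pf x) =
      ⟨(cellEquiv P hS hd hP x).1, pf _ (cellEquiv P hS hd hP x).2⟩ := by
  simp [famPerm, Equiv.Perm.sigmaCongrRight]

private theorem a_famPerm (P : ℕ) (hS : Shape u a d) (hd : IsStrictD d)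
    (hP : ∀ v, P ≤ v → d v = 0) (pf : ∀ t : Fin (d 0), Perm (Fin (height P d t))) (x : Fin n) :
    a (famPerm P hS hd hP pf x) = a x := by
  have := congrArg (fun s : Cells P d => (s.1 : ℕ)) (cell_famPerm P hS hd hP pf x)
  exact this

private theorem u_famPerm (P : ℕ) (hS : Shape u a d) (hd : IsStrictD d)
    (hP : ∀ v, P ≤ v → d v = 0) (pf : ∀ t : Fin (d 0), Perm (Fin (height P d t))) (x : Fin n) :
    u (famPerm P hS hd hP pf x) = pf _ (cellEquiv P hS hd hP x).2 := by
  have := congrArg (fun s : Cells P d => (s.2 : ℕ)) (cell_famPerm P hS hd hP pf x)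
  exact this

private theorem famPerm_surj (P : ℕ) (hS : Shape u a d) (hd : IsStrictD d)
    (hP : ∀ v, P ≤ v → d v = 0) (c : Perm (Fin n)) (hc : c ∈ colS a) :
    ∃ pf : ∀ t : Fin (d 0), Perm (Fin (height P d t)), famPerm P hS hd hP pf = c := by
  have hc' : ∀ x, a (c x) = a x := (Finset.mem_filter.1 hc).2
  set e := cellEquiv P hS hd hP with he
  have hfst : ∀ s : Cells P d, a (e.symm s) = s.1 := by
    intro s
    have := cellEquiv_fst P hS hd hP (e.symm s)
    rw [← he, Equiv.apply_symm_apply] at this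
    exact this.symm
  have hsnd : ∀ s : Cells P d, u (e.symm s) = s.2 := by
    intro s
    have := cellEquiv_snd P hS hd hP (e.symm s)
    rw [← he, Equiv.apply_symm_apply] at this
    exact this.symm
  have hlt : ∀ (t : Fin (d 0)) (v : Fin (height P d t)), u (c (e.symm ⟨t, v⟩)) < height P d t := by
    intro t v
    have := u_lt_height P hS hd hP (c (e.symm ⟨t, v⟩))
    rwa [hc', hfst] at this
  let f : ∀ t : Fin (d 0), Fin (height P d t) → Fin (height P d t) :=
    fun t v => ⟨u (c (e.symm ⟨t, v⟩)), hlt t v⟩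
  have hf : ∀ t, Function.Bijective (f t) := by
    intro t
    refine Finite.injective_iff_bijective.1 ?_
    intro v v' hvv
    have h₁ : u (c (e.symm ⟨t, v⟩)) = u (c (e.symm ⟨t, v'⟩)) := congrArg Fin.val hvv
    have h₂ : a (c (e.symm ⟨t, v⟩)) = a (c (e.symm ⟨t, v'⟩)) := by
      rw [hc', hc', hfst, hfst]
    have h₃ := hS.inj _ _ h₁ h₂
    have h₄ := e.symm.injective (c.injective h₃)
    have h₅ := congrArg (fun s : Cells P d => (s.2 : ℕ)) h₄
    exact Fin.ext h₅
  refine ⟨fun t => Equiv.ofBijective (f t) (hf t), ?_⟩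
  ext x
  have hx : famPerm P hS hd hP (fun t => Equiv.ofBijective (f t) (hf t)) x = c x := by
    refine hS.inj _ _ ?_ ?_
    · rw [u_famPerm P hS hd hP]
      have : e.symm ⟨(e x).1, (e x).2⟩ = x := by
        simp
      change u (c (e.symm ⟨(e x).1, (e x).2⟩)) = _
      rw [this]
    · rw [a_famPerm P hS hd hP, hc']
  rw [hx]

end dict

/-- **The column dictionary.** -/
theorem sum_colS_eq_prod {u a : Fin n → ℕ} {d : ℕ → ℕ} (P : ℕ) (hS : Shape u a d)
    (hd : IsStrictD d) (hP : ∀ v, P ≤ v → d v = 0) (I : ℕ → ℕ → L) :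
    ∑ c ∈ colS a, ∏ x, (X (u x, I (a x) (u (c x))) : MvPolynomial (ℕ × L) ℚ) =
      ∏ t ∈ range (d 0), per (height P d t) (I t) := by
  classical
  have hR : ∏ t ∈ range (d 0), per (L := L) (height P d t) (I t) =
      ∑ pf : ∀ t : Fin (d 0), Perm (Fin (height P d t)),
        ∏ t : Fin (d 0), ∏ v : Fin (height P d t),
          (X ((v : ℕ), I t (pf t v)) : MvPolynomial (ℕ × L) ℚ) := by
    rw [Finset.prod_range]
    simp only [per]
    rw [Finset.prod_univ_sum, Fintype.piFinset_univ]
  rw [hR]
  symm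
  refine Finset.sum_bij (fun pf _ => famPerm P hS hd hP pf) ?_ ?_ ?_ ?_
  · intro pf _
    exact Finset.mem_filter.2 ⟨Finset.mem_univ _, fun x => a_famPerm P hS hd hP pf x⟩
  · intro pf₁ _ pf₂ _ h
    funext t
    ext v
    have hx := congrFun (congrArg DFunLike.coe h) ((cellEquiv P hS hd hP).symm ⟨t, v⟩)
    have h₁ := u_famPerm P hS hd hP pf₁ ((cellEquiv P hS hd hP).symm ⟨t, v⟩)
    have h₂ := u_famPerm P hS hd hP pf₂ ((cellEquiv P hS hd hP).symm ⟨t, v⟩)
    have key : ∀ (pf : ∀ t : Fin (d 0), Perm (Fin (height P d t))) (s s' : Cells P d), s = s' →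
        ((pf s.1 s.2 : Fin _) : ℕ) = (pf s'.1 s'.2 : Fin _) := by
      rintro pf s _ rfl
      rfl
    have hes := (cellEquiv P hS hd hP).apply_symm_apply ⟨t, v⟩
    rw [key pf₁ _ _ hes] at h₁
    rw [key pf₂ _ _ hes] at h₂
    rw [hx] at h₁
    exact h₁.symm.trans h₂
  · intro c hc
    obtain ⟨pf, h⟩ := famPerm_surj P hS hd hP c hc
    exact ⟨pf, Finset.mem_univ _, h⟩
  · intro pf _
    rw [← Fintype.prod_sigma
      (fun s : Cells P d => (X ((s.2 : ℕ), I s.1 (pf s.1 s.2)) : MvPolynomial (ℕ × L) ℚ))]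
    refine (Fintype.prod_equiv (cellEquiv P hS hd hP) _ _ fun x => ?_).symm
    rw [u_famPerm P hS hd hP]
    rfl

/-- The monomial of a labelling of the cells. -/
theorem prod_X_eq_monoD {u a : Fin n → ℕ} {d : ℕ → ℕ} (P : ℕ) (hS : Shape u a d)
    (hP : ∀ v, P ≤ v → d v = 0) [Nonempty L] (l : Fin n → L) :
    ∃ l' : ℕ → ℕ → L, (∏ x, (X (u x, l x) : MvPolynomial (ℕ × L) ℚ)) = monoD P d l' := by
  classical
  let l' : ℕ → ℕ → L := fun v t => if h : ∃ x, u x = v ∧ a x = t then l h.choose
    else Classical.arbitrary L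
  refine ⟨l', ?_⟩
  unfold monoD
  have hsig := Finset.prod_sigma (range P) (fun v => range (d v))
    (fun p : Σ _ : ℕ, ℕ => (X (p.1, l' p.1 p.2) : MvPolynomial (ℕ × L) ℚ))
  refine Eq.trans ?_ hsig
  refine Finset.prod_bij (fun x _ => (⟨u x, a x⟩ : Σ _ : ℕ, ℕ)) ?_ ?_ ?_ ?_
  · intro x _
    refine Finset.mem_sigma.mpr ⟨Finset.mem_range.mpr ?_, Finset.mem_range.mpr (hS.cell x)⟩
    show u x < P
    by_contra hcon
    have := hP (u x) (by omega)
    have h2 := hS.cell x
    omega
  · intro x _ y _ hxy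
    have h1 : u x = u y := congrArg Sigma.fst hxy
    have h2 : a x = a y := by
      simpa [h1] using hxy
    exact hS.inj x y h1 h2
  · rintro ⟨v, t⟩ hp
    have ht := Finset.mem_range.mp (Finset.mem_sigma.mp hp).2
    obtain ⟨x, hx1, hx2⟩ := hS.surj v t ht
    refine ⟨x, Finset.mem_univ _, ?_⟩
    subst hx1
    subst hx2
    rfl
  · intro x _
    have h : ∃ y, u y = u x ∧ a y = a x := ⟨x, rfl, rfl⟩
    have hy : h.choose = x := hS.inj _ _ h.choose_spec.1 h.choose_spec.2
    simp only [l', dif_pos h, hy]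

/-- Every monomial in the cells has the multidegree `d`. -/
theorem sum_degF_row {u a : Fin n → ℕ} {d : ℕ → ℕ} (hS : Shape u a d) (l : Fin n → L) (v : ℕ) :
    ∑ l', degF (fun x => (u x, l x)) (v, l') = d v := by
  classical
  have h1 : ∀ l', degF (fun x => (u x, l x)) (v, l') =
      ((univ.filter fun x => u x = v).filter fun x => l x = l').card := by
    intro l'
    rw [degF_apply, Finset.filter_filter]
    congr 1
    ext x
    simp [Prod.ext_iff]
  simp only [h1]
  rw [← Finset.card_eq_sum_card_fiberwise (f := l) (s := univ.filter fun x => u x = v)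
    (t := univ) (fun x _ => Finset.mem_coe.mpr (Finset.mem_univ _))]
  have h2 : (univ.filter fun x => u x = v).card = (range (d v)).card := by
    refine Finset.card_bij (fun x _ => a x) ?_ ?_ ?_
    · intro x hx
      have := (Finset.mem_filter.mp hx).2
      subst this
      exact Finset.mem_range.mpr (hS.cell x)
    · intro x hx y hy hxy
      have h3 := (Finset.mem_filter.mp hx).2
      have h4 := (Finset.mem_filter.mp hy).2
      exact hS.inj x y (h3.trans h4.symm) hxy
    · intro t ht
      obtain ⟨x, hx1, hx2⟩ := hS.surj v t (Finset.mem_range.mp ht)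
      exact ⟨x, Finset.mem_filter.mpr ⟨Finset.mem_univ _, hx1⟩, hx2⟩
  rw [h2, Finset.card_range]

end Vale.Agent.Lib.P197B
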